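import Vale.Agent.P298.H755.Meas

/-!
P298, row OT-D3 (helper368): from the weighted extension theorem (`L2X`, exponent two with the
singular weight `|h|^(-2 (1 - 1/k))`) to the extension theorem with the `L^(2/k)` norm (`OTFamF`),
by the Hoelder inequality on the sheets and an infimum argument.
-/

open Filter Topology Metric MeasureTheory Set Vale.Agent.P298 Vale.Agent.P298.H379
open scoped ENNReal NNReal

namespace Vale.Agent.P298.H368

/-! ### The Hoelder inequality -/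

/-- the pointwise inequality -/
theorem point_ineq {k : ℝ} (hk : 1 < k) {G H D : ℝ≥0∞} (hG : G ≠ ∞) (hH : H ≠ ∞) (hD : D ≠ ∞)
    (hD0 : D ≠ 0) (hW : G ^ 2 * (H ^ (2 * (1 - 1 / k)))⁻¹ / D ^ 2 ≠ ∞) :
    G ^ (2 / k) / D ^ 2 ≤ (G ^ 2 * (H ^ (2 * (1 - 1 / k)))⁻¹ / D ^ 2) ^ (1 / k) *
      (H ^ (2 / k) / D ^ 2) ^ (1 - 1 / k) := by
  have hk0 : 0 < k := by linarith
  have hκ : 0 < 1 - 1 / k := by
    rw [sub_pos, div_lt_one hk0]
    exact hk
  rcases eq_or_ne H 0 with rfl | hH0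
  · have h1 : ((0 : ℝ≥0∞) ^ (2 * (1 - 1 / k)))⁻¹ = ∞ := by
      rw [ENNReal.zero_rpow_of_pos (by positivity), ENNReal.inv_zero]
    rw [h1] at hW
    have h2 : G = 0 := by
      by_contra hG0
      apply hW
      rw [ENNReal.mul_top (pow_ne_zero 2 hG0), ENNReal.top_div_of_ne_top (by finiteness)]
    rw [h2, ENNReal.zero_rpow_of_pos (by positivity), ENNReal.zero_div]
    exact zero_le
  · refine le_of_eq ?_
    rcases eq_or_ne G 0 with rfl | hG0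
    · rw [ENNReal.zero_rpow_of_pos (by positivity), ENNReal.zero_div]
      simp [hk0]
    -- everything is finite and nonzero
    have e1 : (G ^ 2 * (H ^ (2 * (1 - 1 / k)))⁻¹ / D ^ 2) ^ (1 / k) =
        G ^ (2 / k) * H ^ (-(2 * (1 - 1 / k) / k)) * D ^ (-(2 / k)) := by
      rw [div_eq_mul_inv, ENNReal.mul_rpow_of_nonneg _ _ (by positivity),
        ENNReal.mul_rpow_of_nonneg _ _ (by positivity)]
      congr 1
      · congr 1
        · rw [← ENNReal.rpow_natCast, ← ENNReal.rpow_mul]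
          congr 1
          push_cast
          ring
        · rw [← ENNReal.rpow_neg, ← ENNReal.rpow_mul]
          congr 1
          ring
      · rw [← ENNReal.rpow_natCast, ← ENNReal.rpow_neg, ← ENNReal.rpow_mul]
        congr 1
        push_cast
        ring
    have e2 : (H ^ (2 / k) / D ^ 2) ^ (1 - 1 / k) =
        H ^ (2 * (1 - 1 / k) / k) * D ^ (-(2 * (1 - 1 / k))) := by
      rw [div_eq_mul_inv, ENNReal.mul_rpow_of_nonneg _ _ hκ.le]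
      congr 1
      · rw [← ENNReal.rpow_mul]
        congr 1
        ring
      · rw [← ENNReal.rpow_natCast, ← ENNReal.rpow_neg, ← ENNReal.rpow_mul]
        congr 1
        push_cast
        ring
    rw [e1, e2, div_eq_mul_inv]
    have e3 : H ^ (-(2 * (1 - 1 / k) / k)) * H ^ (2 * (1 - 1 / k) / k) = 1 := by
      rw [← ENNReal.rpow_add _ _ hH0 hH, neg_add_cancel, ENNReal.rpow_zero]
    have e4 : D ^ (-(2 / k)) * D ^ (-(2 * (1 - 1 / k))) = (D ^ 2)⁻¹ := by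
      rw [← ENNReal.rpow_add _ _ hD0 hD, ← ENNReal.rpow_natCast, ← ENNReal.rpow_neg]
      congr 1
      push_cast
      field_simp
      ring
    calc G ^ (2 / k) * (D ^ 2)⁻¹
        = G ^ (2 / k) * (H ^ (-(2 * (1 - 1 / k) / k)) * H ^ (2 * (1 - 1 / k) / k)) *
          (D ^ (-(2 / k)) * D ^ (-(2 * (1 - 1 / k)))) := by rw [e3, e4, mul_one]
      _ = _ := by ring

/-- The Hoelder inequality. -/
theorem holder_abs {α : Type*} [MeasurableSpace α] {μ : Measure α} {k : ℝ} (hk : 1 < k)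
    {G H D : α → ℝ≥0∞} (hG : AEMeasurable G μ) (hH : AEMeasurable H μ) (hD : AEMeasurable D μ)
    (hGt : ∀ a, G a ≠ ∞) (hHt : ∀ a, H a ≠ ∞) (hDt : ∀ a, D a ≠ ∞) (hD0 : ∀ᵐ a ∂μ, D a ≠ 0)
    (hW : ∫⁻ a, G a ^ 2 * (H a ^ (2 * (1 - 1 / k)))⁻¹ / D a ^ 2 ∂μ ≠ ∞) :
    ∫⁻ a, G a ^ (2 / k) / D a ^ 2 ∂μ ≤
      (∫⁻ a, G a ^ 2 * (H a ^ (2 * (1 - 1 / k)))⁻¹ / D a ^ 2 ∂μ) ^ (1 / k) *
      (∫⁻ a, H a ^ (2 / k) / D a ^ 2 ∂μ) ^ (1 - 1 / k) := by
  have hk0 : 0 < k := by linarith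
  have hκ : 0 < 1 - 1 / k := by
    rw [sub_pos, div_lt_one hk0]
    exact hk
  have hm1 : AEMeasurable (fun a => G a ^ 2 * (H a ^ (2 * (1 - 1 / k)))⁻¹ / D a ^ 2) μ :=
    ((hG.pow_const 2).mul (hH.pow_const _).inv).div (hD.pow_const 2)
  have hm2 : AEMeasurable (fun a => H a ^ (2 / k) / D a ^ 2) μ :=
    (hH.pow_const _).div (hD.pow_const 2)
  refine le_trans ?_ (ENNReal.lintegral_mul_norm_pow_le hm1 hm2 (by positivity) hκ.le (by ring))
  refine lintegral_mono_ae ?_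
  filter_upwards [hD0, ae_lt_top' hm1 hW] with a ha1 ha2
  exact point_ineq hk (hGt a) (hHt a) (hDt a) ha1 ha2.ne

/-! ### The two statements -/

/-- the weighted integrand `|g|² |h|^(-2 (1 - 1/k))` (`0 * ∞ = 0`) -/
noncomputable def wgt {d e : ℕ} (k : ℝ) (g h : Q d e) (x : Fin 3 → ℂ) : ℝ≥0∞ :=
  ‖ev g x‖ₑ ^ 2 * (‖ev h x‖ₑ ^ (2 * (1 - 1 / k)))⁻¹

/-- The weighted extension theorem with exponent two. -/
def L2X (C : ℝ≥0) : Prop :=
  ∀ (d e : ℕ), 5 ≤ d → ∀ (c : Fin 3 → ℂ), (∀ i, c i ≠ 0) → ∀ (b : ℂ → Q d (d - 1)) (r : ℝ),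
    0 < r → DifferentiableOn ℂ b (ball 0 r) →
    (∃ B : ℝ, ∀ τ ∈ ball (0 : ℂ) r, ∀ α, ‖b τ α‖ ≤ B) →
    (∃ p : ℂ × ℂ, ∀ z, H98.Gf c b 0 (pt p z) = 0 → pd 2 (H98.Gf c b 0) (pt p z) ≠ 0) →
    ∀ k ∈ KK d e, ∀ v : Q d e, v ≠ 0 → Nk (H98.Gf c b 0) 0 k (ev v) < ∞ →
    ∀ h : ℂ → Q d e, DifferentiableOn ℂ h (ball 0 r) → h 0 = v →
      ∫⁻ τ in ball (0 : ℂ) r, Nk (H98.Gf c b τ) 0 k (ev (h τ)) < ∞ →
    ∃ g : ℂ → Q d e, DifferentiableOn ℂ g (ball 0 r) ∧ g 0 = v ∧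
      ∫⁻ τ in ball (0 : ℂ) r, nu (H98.Gf c b τ) 0 (wgt k (g τ) (h τ)) ≤
        C * ENNReal.ofReal (r ^ 2) * Nk (H98.Gf c b 0) 0 k (ev v)

/-- The extension theorem with the `L^(2/k)` norm, with the start `hfin`. -/
def OTFamF (C : ℝ≥0) : Prop :=
  ∀ (d e : ℕ), 5 ≤ d → ∀ (c : Fin 3 → ℂ), (∀ i, c i ≠ 0) → ∀ (b : ℂ → Q d (d - 1)) (r : ℝ),
    0 < r → DifferentiableOn ℂ b (ball 0 r) →
    (∃ B : ℝ, ∀ τ ∈ ball (0 : ℂ) r, ∀ α, ‖b τ α‖ ≤ B) →
    (∃ p : ℂ × ℂ, ∀ z, H98.Gf c b 0 (pt p z) = 0 → pd 2 (H98.Gf c b 0) (pt p z) ≠ 0) →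
    ∀ k ∈ KK d e, ∀ v : Q d e, Nk (H98.Gf c b 0) 0 k (ev v) < ∞ →
    ∫⁻ τ in ball (0 : ℂ) r, Nk (H98.Gf c b τ) 0 k (ev v) < ∞ →
    ∃ h : ℂ → Q d e, DifferentiableOn ℂ h (ball 0 r) ∧ h 0 = v ∧
      ∫⁻ τ in ball (0 : ℂ) r, Nk (H98.Gf c b τ) 0 k (ev (h τ)) ≤
        C * ENNReal.ofReal (r ^ 2) * Nk (H98.Gf c b 0) 0 k (ev v)

/-! ### The Hoelder inequality for a family -/

variable {d e : ℕ} {r : ℝ}

theorem ev_zero' (x : Fin 3 → ℂ) : ev (0 : Q d e) x = 0 := by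
  unfold ev
  simp

theorem measurable_ev {h : ℂ → Q d e} (hh : Measurable h) :
    Measurable (fun q : ℂ × (Fin 3 → ℂ) => ev (h q.1) q.2) := by
  unfold ev
  refine Finset.measurable_fun_sum _ fun α _ => ?_
  refine Measurable.mul ?_ ?_
  · exact (measurable_pi_iff.1 hh α).comp measurable_fst
  · refine Finset.measurable_fun_prod _ fun i _ => ?_
    exact (((measurable_pi_apply i).comp measurable_snd).pow_const _)

theorem measurable_ind {h : ℂ → Q d e} (hh : DifferentiableOn ℂ h (ball 0 r)) :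
    Measurable ((ball (0 : ℂ) r).indicator h) := by
  classical
  have h1 : Measurable ((ball (0 : ℂ) r).piecewise h 0) :=
    hh.continuousOn.measurable_piecewise continuousOn_const measurableSet_ball
  rwa [piecewise_eq_indicator] at h1

/-- the point of the surface over a point of the sheets -/
noncomputable def spt (F : H755.Fam d r) (q : (Fin 3 → ℂ) × ℕ) : ℂ × (Fin 3 → ℂ) :=
  (q.1 2, pt (q.1 0, q.1 1) (F.rt q))

theorem aemeasurable_spt (F : H755.Fam d r) : AEMeasurable (spt F) F.S.μ := by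
  have h1 : Measurable (fun q : (Fin 3 → ℂ) × ℂ => (q.1 2, pt (q.1 0, q.1 1) q.2)) :=
    ((measurable_pi_apply 2).comp measurable_fst).prodMk H755.Fam.measurable_pt
  exact h1.comp_aemeasurable F.aemeasurable_rt

theorem lint_fam (F : H755.Fam d r) {φ ψ : ℂ → (Fin 3 → ℂ) → ℝ≥0∞}
    (hφ : Measurable (Function.uncurry φ)) (h : ∀ τ ∈ ball (0 : ℂ) r, ψ τ = φ τ) :
    ∫⁻ τ in ball (0 : ℂ) r, nu (F.G τ) 0 (ψ τ) =
      ∫⁻ q, Function.uncurry φ (spt F q) / ‖F.dG q‖ₑ ^ 2 ∂F.S.μ := by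
  have h1 := F.lintegral_nu_ball hφ
  refine Eq.trans (setLIntegral_congr_fun measurableSet_ball fun τ hτ => ?_) h1
  rw [h τ hτ]

/-- the value of the family of polynomials `u`, `0` outside of the disc -/
noncomputable def eva (r : ℝ) (u : ℂ → Q d e) (p : ℂ × (Fin 3 → ℂ)) : ℂ :=
  ev ((ball (0 : ℂ) r).indicator u p.1) p.2

theorem measurable_eva {u : ℂ → Q d e} (hu : DifferentiableOn ℂ u (ball 0 r)) :
    Measurable (eva r u) := measurable_ev (measurable_ind hu)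

theorem eva_eq {u : ℂ → Q d e} {τ : ℂ} (hτ : τ ∈ ball (0 : ℂ) r) (x : Fin 3 → ℂ) :
    eva r u (τ, x) = ev (u τ) x := by
  unfold eva
  rw [indicator_of_mem hτ]

theorem lint_Nk (F : H755.Fam d r) (k : ℝ) {u : ℂ → Q d e}
    (hu : DifferentiableOn ℂ u (ball 0 r)) :
    ∫⁻ τ in ball (0 : ℂ) r, Nk (F.G τ) 0 k (ev (u τ)) =
      ∫⁻ q, ‖eva r u (spt F q)‖ₑ ^ (2 / k) / ‖F.dG q‖ₑ ^ 2 ∂F.S.μ := by
  have m2 : Measurable (Function.uncurry fun (τ : ℂ) (x : Fin 3 → ℂ) =>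
      ‖eva r u (τ, x)‖ₑ ^ (2 / k)) := (measurable_eva hu).enorm.pow_const _
  refine lint_fam F m2 fun τ hτ => ?_
  funext x
  rw [eva_eq hτ]

theorem lint_wgt (F : H755.Fam d r) (k : ℝ) {g h : ℂ → Q d e}
    (hg : DifferentiableOn ℂ g (ball 0 r)) (hh : DifferentiableOn ℂ h (ball 0 r)) :
    ∫⁻ τ in ball (0 : ℂ) r, nu (F.G τ) 0 (wgt k (g τ) (h τ)) =
      ∫⁻ q, ‖eva r g (spt F q)‖ₑ ^ 2 * (‖eva r h (spt F q)‖ₑ ^ (2 * (1 - 1 / k)))⁻¹ /
        ‖F.dG q‖ₑ ^ 2 ∂F.S.μ := by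
  have m3 : Measurable (fun q => ‖eva r g q‖ₑ ^ 2) := (measurable_eva hg).enorm.pow_const 2
  have m4 : Measurable (fun q => (‖eva r h q‖ₑ ^ (2 * (1 - 1 / k)))⁻¹) :=
    ((measurable_eva hh).enorm.pow_const _).inv
  have m2 : Measurable (Function.uncurry fun (τ : ℂ) (x : Fin 3 → ℂ) => ‖eva r g (τ, x)‖ₑ ^ 2 *
      (‖eva r h (τ, x)‖ₑ ^ (2 * (1 - 1 / k)))⁻¹) := m3.mul m4
  refine lint_fam F m2 fun τ hτ => ?_
  funext x
  rw [eva_eq hτ, eva_eq hτ]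
  rfl

theorem holder_fam (F : H755.Fam d r) {k : ℝ} (hk : 1 < k) {g h : ℂ → Q d e}
    (hg : DifferentiableOn ℂ g (ball 0 r)) (hh : DifferentiableOn ℂ h (ball 0 r))
    (hW : ∫⁻ τ in ball (0 : ℂ) r, nu (F.G τ) 0 (wgt k (g τ) (h τ)) ≠ ∞) :
    ∫⁻ τ in ball (0 : ℂ) r, Nk (F.G τ) 0 k (ev (g τ)) ≤
      (∫⁻ τ in ball (0 : ℂ) r, nu (F.G τ) 0 (wgt k (g τ) (h τ))) ^ (1 / k) *
      (∫⁻ τ in ball (0 : ℂ) r, Nk (F.G τ) 0 k (ev (h τ))) ^ (1 - 1 / k) := by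
  rw [lint_wgt F k hg hh] at hW ⊢
  rw [lint_Nk F k hg, lint_Nk F k hh]
  have mD : AEMeasurable (fun q => ‖F.dG q‖ₑ) F.S.μ :=
    (P300.L2.Sheets.aestronglyMeasurable_of_CD (F.holo_dG.CD 0)).aemeasurable.enorm
  have hD0 : ∀ᵐ q ∂F.S.μ, ‖F.dG q‖ₑ ≠ 0 := by
    filter_upwards [P300.L2.Sheets.ae_mem_M (S := F.S)] with q hq
    rw [Ne, enorm_eq_zero]
    exact F.dG_ne_zero hq
  exact holder_abs hk ((measurable_eva hg).enorm.comp_aemeasurable (aemeasurable_spt F))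
    ((measurable_eva hh).enorm.comp_aemeasurable (aemeasurable_spt F)) mD
    (fun _ => enorm_ne_top) (fun _ => enorm_ne_top) (fun _ => enorm_ne_top) hD0 hW

/-! ### The infimum argument -/

/-- If `m ≤ A^(1/k) x^(1 - 1/k)` for all `x` in a nonempty set with infimum `m`, all finite, then
`m ≤ A`. -/
theorem inf_arg {k : ℝ} (hk : 1 < k) {A : ℝ≥0∞} {S : Set ℝ≥0∞} (hS : S.Nonempty)
    (hfin : ∀ x ∈ S, x ≠ ∞)
    (hstep : ∀ x ∈ S, ∃ y ∈ S, y ≤ A ^ (1 / k) * x ^ (1 - 1 / k)) : sInf S ≤ A := by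
  have hk0 : 0 < k := by linarith
  have hκ : 0 < 1 - 1 / k := by
    rw [sub_pos, div_lt_one hk0]
    exact hk
  rcases eq_or_ne A ∞ with rfl | hA
  · exact le_top
  set m := sInf S with hm
  rcases eq_or_ne m 0 with hm0 | hm0
  · rw [hm0]
    exact zero_le
  have hmt : m ≠ ∞ := by
    obtain ⟨x, hx⟩ := hS
    exact ne_top_of_le_ne_top (hfin x hx) (sInf_le hx)
  obtain ⟨u, -, hu, huS⟩ := exists_seq_tendsto_sInf hS (OrderBot.bddBelow S)
  have h1 : ∀ n, m ≤ A ^ (1 / k) * u n ^ (1 - 1 / k) := by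
    intro n
    obtain ⟨y, hy, hle⟩ := hstep (u n) (huS n)
    exact (sInf_le hy).trans hle
  have h2 : m ≤ A ^ (1 / k) * m ^ (1 - 1 / k) := by
    have h5 : Tendsto (fun n => A ^ (1 / k) * u n ^ (1 - 1 / k)) atTop
        (𝓝 (A ^ (1 / k) * m ^ (1 - 1 / k))) := by
      refine ENNReal.Tendsto.const_mul ?_ (Or.inr (by finiteness))
      exact (ENNReal.continuous_rpow_const.tendsto m).comp hu
    exact ge_of_tendsto h5 (Eventually.of_forall h1)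
  have h3 : m ^ (1 / k) * m ^ (1 - 1 / k) ≤ A ^ (1 / k) * m ^ (1 - 1 / k) := by
    rw [← ENNReal.rpow_add _ _ hm0 hmt, add_sub_cancel, ENNReal.rpow_one]
    exact h2
  have h4 : m ^ (1 / k) ≤ A ^ (1 / k) :=
    (ENNReal.mul_le_mul_iff_left (by positivity) (by finiteness)).1 h3
  exact (ENNReal.rpow_le_rpow_iff (by positivity)).1 h4

theorem inf_arg2 {k : ℝ} (hk : 1 ≤ k) {A : ℝ≥0∞} (hA : A ≠ ∞) {S : Set ℝ≥0∞} (hS : S.Nonempty)
    (hfin : ∀ x ∈ S, x ≠ ∞)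
    (hstep : ∀ x ∈ S, ∃ y ∈ S, y ≤ A ^ (1 / k) * x ^ (1 - 1 / k)) : ∃ x ∈ S, x ≤ 2 * A := by
  have hk0 : 0 < k := by linarith
  rcases hk.eq_or_lt with rfl | hk1
  · obtain ⟨x, hx⟩ := hS
    obtain ⟨y, hy, hle⟩ := hstep x hx
    refine ⟨y, hy, hle.trans ?_⟩
    rw [div_one, sub_self, ENNReal.rpow_one, ENNReal.rpow_zero, mul_one]
    calc A = 1 * A := (one_mul A).symm
      _ ≤ 2 * A := by gcongr; norm_num
  rcases eq_or_ne A 0 with rfl | hA0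
  · obtain ⟨x, hx⟩ := hS
    obtain ⟨y, hy, hle⟩ := hstep x hx
    refine ⟨y, hy, hle.trans ?_⟩
    rw [ENNReal.zero_rpow_of_pos (by positivity), zero_mul]
    exact zero_le
  · have h1 := inf_arg hk1 hS hfin hstep
    have h2 : sInf S < 2 * A := by
      refine lt_of_le_of_lt h1 ?_
      calc A = 1 * A := (one_mul A).symm
        _ < 2 * A := by
          rw [ENNReal.mul_lt_mul_iff_left hA0 hA]
          norm_num
    obtain ⟨x, hx, hlt⟩ := sInf_lt_iff.1 h2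
    exact ⟨x, hx, hlt.le⟩

/-- **Row OT-D3**: the extension theorem with the `L^(2/k)` norm follows from the weighted
extension theorem with exponent two. -/
theorem otFam_of_l2x {C : ℝ≥0} (H : L2X C) : OTFamF (2 * C) := by
  intro d e hd c hc b r hr hb hB hp k hk v hN hfin
  have hk1 : 1 ≤ k := hk.1
  have hk0 : 0 < k := by linarith
  by_cases hv : v = 0
  · refine ⟨fun _ => v, differentiableOn_const _, rfl, ?_⟩
    have h0 : ∀ τ, Nk (H98.Gf c b τ) 0 k (ev v) = 0 := by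
      intro τ
      have h1 : (fun x => ‖ev v x‖ₑ ^ (2 / k)) = fun _ => (0 : ℝ≥0∞) := by
        funext x
        rw [hv, ev_zero', enorm_zero, ENNReal.zero_rpow_of_pos (by positivity)]
      unfold Nk nu rootSum
      rw [h1]
      simp
    simp only [h0]
    simp
  have hd0 : 0 < d := by omega
  set F := H755.Fam.mk' c b hd0 hr hc hb hB hp with hF
  have hG : ∀ τ, H98.Gf c b τ = F.G τ := fun τ => rfl
  set A : ℝ≥0∞ := C * ENNReal.ofReal (r ^ 2) * Nk (H98.Gf c b 0) 0 k (ev v) with hA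
  have hAt : A ≠ ∞ := by
    rw [hA]
    finiteness
  set I : (ℂ → Q d e) → ℝ≥0∞ := fun h =>
    ∫⁻ τ in ball (0 : ℂ) r, Nk (H98.Gf c b τ) 0 k (ev (h τ)) with hI
  have key := inf_arg2 hk1 hAt
    (S := {x | ∃ h : ℂ → Q d e, DifferentiableOn ℂ h (ball 0 r) ∧ h 0 = v ∧ I h = x ∧ x ≠ ∞})
    ⟨_, fun _ => v, differentiableOn_const _, rfl, rfl, hfin.ne⟩
    (by rintro x ⟨h, -, -, -, hx⟩; exact hx)
    (by
      rintro x ⟨h, hh1, hh2, rfl, hx⟩
      obtain ⟨g, hg1, hg2, hg3⟩ := H d e hd c hc b r hr hb hB hp k hk v hv hN h hh1 hh2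
        (lt_top_iff_ne_top.2 hx)
      have hW : ∫⁻ τ in ball (0 : ℂ) r, nu (H98.Gf c b τ) 0 (wgt k (g τ) (h τ)) ≠ ∞ :=
        ne_top_of_le_ne_top hAt hg3
      have hle : I g ≤ A ^ (1 / k) * I h ^ (1 - 1 / k) := by
        rcases hk1.eq_or_lt with hk1' | hk1'
        · -- `k = 1`
          have h1 : I g = ∫⁻ τ in ball (0 : ℂ) r, nu (H98.Gf c b τ) 0 (wgt k (g τ) (h τ)) := by
            simp only [hI]
            refine lintegral_congr fun τ => ?_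
            unfold Nk
            congr 1
            funext x
            unfold wgt
            rw [← hk1', div_one, div_one, sub_self, mul_zero, ENNReal.rpow_zero, inv_one, mul_one,
              ← ENNReal.rpow_natCast]
            norm_num
          rw [h1, ← hk1', div_one, sub_self, ENNReal.rpow_one, ENNReal.rpow_zero, mul_one, hk1']
          exact hg3
        · refine (holder_fam F hk1' hg1 hh1 hW).trans ?_
          exact mul_le_mul' (ENNReal.rpow_le_rpow hg3 (by positivity)) le_rfl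
      refine ⟨I g, ⟨g, hg1, hg2, rfl, ?_⟩, hle⟩
      refine ne_top_of_le_ne_top ?_ hle
      refine ENNReal.mul_ne_top (by finiteness) ?_
      refine ENNReal.rpow_ne_top_of_nonneg ?_ hx
      rw [sub_nonneg, div_le_one hk0]
      exact hk1)
  obtain ⟨x, ⟨h, hh1, hh2, rfl, -⟩, hle⟩ := key
  refine ⟨h, hh1, hh2, hle.trans (le_of_eq ?_)⟩
  rw [hA]
  push_cast
  ring

end Vale.Agent.P298.H368
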