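import Vale.Agent.P298.H368.D3
import Vale.Agent.P298.H293.Asm

/-!
P298, row OT-D3 (helper368): the extension theorem `OTFam` of helper293 from the weighted
extension theorem `L2X`.
-/

open scoped NNReal

namespace Vale.Agent.P298.H368

theorem otFam {C : ℝ≥0} (H : L2X C) : H293.OTFam (2 * C) := otFam_of_l2x H

theorem ots_all {C : ℝ≥0} (H : L2X C) {d : ℕ} {R δ : ℝ} (F : H379.PFam d R δ) (e : ℕ) :
    H379.OTS F (2 * C) e := H293.ots_of_fam (otFam H) F e

theorem otp1c_all {C : ℝ≥0} (hC : C ≠ 0) (H : L2X C) {d : ℕ} {R δ : ℝ} (F : H379.PFam d R δ)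
    (e : ℕ) : H293.OTP1c F (2 * C) e :=
  H293.otp1c_of_fam (mul_ne_zero two_ne_zero hC) (otFam H) F e

end Vale.Agent.P298.H368
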